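import Mathlib

/-!
The ultraproduct of a sequence of complex inner product spaces, as a complex inner product space,
and the operators induced by uniformly bounded sequences of operators.
-/

set_option autoImplicit false
set_option linter.unusedSectionVars false

noncomputable section

namespace Crest.Agent.Lib.HilbUltra

open Filter Topology
open scoped InnerProductSpace

/-- limit along an ultrafilter -/
def ulim {X : Type} [TopologicalSpace X] [Nonempty X] (ω : Ultrafilter ℕ) (f : ℕ → X) : X :=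
  limUnder (ω : Filter ℕ) f

theorem tendsto_ulim {X : Type} [NormedAddCommGroup X] [ProperSpace X] (ω : Ultrafilter ℕ)
    {f : ℕ → X} {C : ℝ} (h : ∀ n, ‖f n‖ ≤ C) : Tendsto f ω (𝓝 (ulim ω f)) := by
  have hc : IsCompact (Metric.closedBall (0 : X) C) := isCompact_closedBall _ _
  obtain ⟨a, -, ha⟩ := hc.ultrafilter_le_nhds (ω.map f) (by
    rw [le_principal_iff]
    exact mem_map.2 (Eventually.of_forall fun n => by simpa using h n))
  exact tendsto_nhds_limUnder ⟨a, ha⟩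

/-- bounded sequence -/
def Bdd {E : ℕ → Type} [∀ n, Norm (E n)] (x : ∀ n, E n) : Prop := ∃ C : ℝ, ∀ n, ‖x n‖ ≤ C

section Bdd

variable {E : ℕ → Type} [∀ n, SeminormedAddCommGroup (E n)]

theorem Bdd.add {x y : ∀ n, E n} (hx : Bdd x) (hy : Bdd y) : Bdd (fun n => x n + y n) := by
  obtain ⟨C, hC⟩ := hx
  obtain ⟨D, hD⟩ := hy
  exact ⟨C + D, fun n => (norm_add_le _ _).trans (add_le_add (hC n) (hD n))⟩

theorem Bdd.sub {x y : ∀ n, E n} (hx : Bdd x) (hy : Bdd y) : Bdd (fun n => x n - y n) := by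
  obtain ⟨C, hC⟩ := hx
  obtain ⟨D, hD⟩ := hy
  exact ⟨C + D, fun n => (norm_sub_le _ _).trans (add_le_add (hC n) (hD n))⟩

theorem Bdd.zero : Bdd (fun n => (0 : E n)) := ⟨0, fun _ => by simp⟩

theorem Bdd.smul [∀ n, NormedSpace ℂ (E n)] (c : ℂ) {x : ∀ n, E n} (hx : Bdd x) :
    Bdd (fun n => c • x n) := by
  obtain ⟨C, hC⟩ := hx
  exact ⟨‖c‖ * C, fun n => by
    rw [norm_smul]; exact mul_le_mul_of_nonneg_left (hC n) (norm_nonneg c)⟩

theorem Bdd.sum {ι : Type} (s : Finset ι) {x : ι → ∀ n, E n} (hx : ∀ i ∈ s, Bdd (x i)) :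
    Bdd (fun n => ∑ i ∈ s, x i n) := by
  classical
  induction s using Finset.induction_on with
  | empty => simpa using Bdd.zero
  | insert a s ha ih =>
    simp only [Finset.sum_insert ha]
    exact (hx a (Finset.mem_insert_self _ _)).add
      (ih fun i hi => hx i (Finset.mem_insert_of_mem hi))

end Bdd

variable (ω : Ultrafilter ℕ) (E F G : ℕ → Type)
  [∀ n, NormedAddCommGroup (E n)] [∀ n, InnerProductSpace ℂ (E n)]
  [∀ n, NormedAddCommGroup (F n)] [∀ n, InnerProductSpace ℂ (F n)]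
  [∀ n, NormedAddCommGroup (G n)] [∀ n, InnerProductSpace ℂ (G n)]

/-- bounded sequences as a submodule -/
def bddSub : Submodule ℂ (∀ n, E n) where
  carrier := {x | Bdd x}
  add_mem' hx hy := Bdd.add hx hy
  zero_mem' := Bdd.zero
  smul_mem' c _ hx := Bdd.smul c hx

/-- bounded sequences with the limit seminorm -/
def Pre (_ω : Ultrafilter ℕ) (E : ℕ → Type) [∀ n, NormedAddCommGroup (E n)]
  [∀ n, InnerProductSpace ℂ (E n)] : Type := bddSub E

instance : AddCommGroup (Pre ω E) := inferInstanceAs (AddCommGroup (bddSub E))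
instance : Module ℂ (Pre ω E) := inferInstanceAs (Module ℂ (bddSub E))

variable {ω E F G}

/-- underlying sequence -/
def Pre.seq (x : Pre ω E) : ∀ n, E n := (show bddSub E from x).1

theorem Pre.bdd (x : Pre ω E) : Bdd x.seq := (show bddSub E from x).2

/-- constructor -/
def Pre.mk' (ω : Ultrafilter ℕ) (x : ∀ n, E n) (hx : Bdd x) : Pre ω E := (⟨x, hx⟩ : bddSub E)

theorem Pre.seq_add (x y : Pre ω E) (n : ℕ) : (x + y).seq n = x.seq n + y.seq n := rfl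
theorem Pre.seq_sub (x y : Pre ω E) (n : ℕ) : (x - y).seq n = x.seq n - y.seq n := rfl
theorem Pre.seq_neg (x : Pre ω E) (n : ℕ) : (-x).seq n = -x.seq n := rfl
theorem Pre.seq_zero (n : ℕ) : (0 : Pre ω E).seq n = 0 := rfl
theorem Pre.seq_smul (c : ℂ) (x : Pre ω E) (n : ℕ) : (c • x).seq n = c • x.seq n := rfl

/-- the limit norm -/
def Pre.nrm (x : Pre ω E) : ℝ := ulim ω fun n => ‖x.seq n‖

theorem Pre.tendsto_nrm (x : Pre ω E) : Tendsto (fun n => ‖x.seq n‖) ω (𝓝 x.nrm) := by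
  obtain ⟨C, hC⟩ := x.bdd
  exact tendsto_ulim ω (C := C) fun n => by simpa using hC n

/-- the limit inner product -/
def Pre.inn (x y : Pre ω E) : ℂ := ulim ω fun n => ⟪x.seq n, y.seq n⟫_ℂ

theorem Pre.tendsto_inn (x y : Pre ω E) :
    Tendsto (fun n => ⟪x.seq n, y.seq n⟫_ℂ) ω (𝓝 (x.inn y)) := by
  obtain ⟨C, hC⟩ := x.bdd
  obtain ⟨D, hD⟩ := y.bdd
  exact tendsto_ulim ω (C := C * D) fun n => (norm_inner_le_norm _ _).trans
    (mul_le_mul (hC n) (hD n) (norm_nonneg _) ((norm_nonneg _).trans (hC n)))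

variable (ω E) in
/-- the limit seminorm -/
def preSeminorm : AddGroupSeminorm (Pre ω E) where
  toFun := Pre.nrm
  map_zero' := tendsto_nhds_unique (Pre.tendsto_nrm 0) (by simp [Pre.seq_zero])
  add_le' x y := le_of_tendsto_of_tendsto' (Pre.tendsto_nrm (x + y))
    (x.tendsto_nrm.add y.tendsto_nrm) fun n => norm_add_le _ _
  neg' x := tendsto_nhds_unique (Pre.tendsto_nrm (-x))
    (by simpa only [Pre.seq_neg, norm_neg] using x.tendsto_nrm)

instance : SeminormedAddCommGroup (Pre ω E) := (preSeminorm ω E).toSeminormedAddCommGroup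

theorem Pre.tendsto_norm (x : Pre ω E) : Tendsto (fun n => ‖x.seq n‖) ω (𝓝 ‖x‖) := x.tendsto_nrm

instance : NormedSpace ℂ (Pre ω E) where
  norm_smul_le c x := le_of_tendsto_of_tendsto' (Pre.tendsto_norm (c • x))
    (x.tendsto_norm.const_mul ‖c‖) fun n => norm_smul_le c (x.seq n)

instance : InnerProductSpace ℂ (Pre ω E) where
  inner := Pre.inn
  norm_sq_eq_re_inner x := tendsto_nhds_unique (x.tendsto_norm.pow 2) (by
    have := (RCLike.continuous_re (K := ℂ)).continuousAt.tendsto.comp (x.tendsto_inn x)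
    refine this.congr fun n => ?_
    exact (norm_sq_eq_re_inner (𝕜 := ℂ) _).symm)
  conj_inner_symm x y := tendsto_nhds_unique
    ((Complex.continuous_conj).continuousAt.tendsto.comp (y.tendsto_inn x))
    ((x.tendsto_inn y).congr fun n => (inner_conj_symm _ _).symm)
  add_left x y z := tendsto_nhds_unique ((x + y).tendsto_inn z)
    (((x.tendsto_inn z).add (y.tendsto_inn z)).congr fun n => (inner_add_left _ _ _).symm)
  smul_left x y c := tendsto_nhds_unique ((c • x).tendsto_inn y)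
    (((x.tendsto_inn y).const_mul _).congr fun n => (inner_smul_left _ _ _).symm)

variable (ω E) in
/-- The ultraproduct. -/
def UP : Type := SeparationQuotient (Pre ω E)

instance : NormedAddCommGroup (UP ω E) :=
  inferInstanceAs (NormedAddCommGroup (SeparationQuotient (Pre ω E)))

instance : InnerProductSpace ℂ (UP ω E) :=
  inferInstanceAs (InnerProductSpace ℂ (SeparationQuotient (Pre ω E)))

/-- class of a bounded sequence -/
def UP.ofPre (x : Pre ω E) : UP ω E := SeparationQuotient.mk x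

open Classical in
variable (ω) in
/-- class of a sequence (zero if unbounded) -/
def UP.mk (x : ∀ n, E n) : UP ω E := if h : Bdd x then UP.ofPre (Pre.mk' ω x h) else 0

theorem UP.mk_eq {x : ∀ n, E n} (h : Bdd x) : UP.mk ω x = UP.ofPre (Pre.mk' ω x h) := dif_pos h

theorem UP.exists_mk (ξ : UP ω E) : ∃ x, Bdd x ∧ ξ = UP.mk ω x := by
  obtain ⟨x, rfl⟩ := SeparationQuotient.surjective_mk (X := Pre ω E) ξ
  exact ⟨x.seq, x.bdd, (UP.mk_eq x.bdd).symm⟩

theorem UP.tendsto_norm {x : ∀ n, E n} (h : Bdd x) :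
    Tendsto (fun n => ‖x n‖) ω (𝓝 ‖UP.mk ω x‖) := by
  rw [UP.mk_eq h]
  exact (Pre.mk' ω x h).tendsto_norm

theorem UP.tendsto_inner {x y : ∀ n, E n} (hx : Bdd x) (hy : Bdd y) :
    Tendsto (fun n => ⟪x n, y n⟫_ℂ) ω (𝓝 ⟪UP.mk ω x, UP.mk ω y⟫_ℂ) := by
  rw [UP.mk_eq hx, UP.mk_eq hy]
  have e : ⟪UP.ofPre (Pre.mk' ω x hx), UP.ofPre (Pre.mk' ω y hy)⟫_ℂ =
      (Pre.mk' ω x hx).inn (Pre.mk' ω y hy) :=
    SeparationQuotient.inner_mk_mk (𝕜 := ℂ) (Pre.mk' ω x hx) (Pre.mk' ω y hy)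
  rw [e]
  exact (Pre.mk' ω x hx).tendsto_inn (Pre.mk' ω y hy)

theorem UP.mk_add {x y : ∀ n, E n} (hx : Bdd x) (hy : Bdd y) :
    UP.mk ω (fun n => x n + y n) = UP.mk ω x + UP.mk ω y := by
  rw [UP.mk_eq hx, UP.mk_eq hy, UP.mk_eq (hx.add hy)]; rfl

theorem UP.mk_sub {x y : ∀ n, E n} (hx : Bdd x) (hy : Bdd y) :
    UP.mk ω (fun n => x n - y n) = UP.mk ω x - UP.mk ω y := by
  rw [UP.mk_eq hx, UP.mk_eq hy, UP.mk_eq (hx.sub hy)]; rfl

theorem UP.mk_smul (c : ℂ) {x : ∀ n, E n} (hx : Bdd x) :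
    UP.mk ω (fun n => c • x n) = c • UP.mk ω x := by
  rw [UP.mk_eq hx, UP.mk_eq (hx.smul c)]; rfl

theorem UP.mk_zero : UP.mk ω (fun n => (0 : E n)) = 0 := by
  rw [UP.mk_eq Bdd.zero]; rfl

theorem UP.mk_sum {ι : Type} (s : Finset ι) {x : ι → ∀ n, E n} (hx : ∀ i ∈ s, Bdd (x i)) :
    UP.mk ω (fun n => ∑ i ∈ s, x i n) = ∑ i ∈ s, UP.mk ω (x i) := by
  classical
  induction s using Finset.induction_on with
  | empty => simpa using UP.mk_zero
  | insert a s ha ih =>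
    simp only [Finset.sum_insert ha]
    rw [UP.mk_add (hx a (Finset.mem_insert_self _ _))
      (Bdd.sum s fun i hi => hx i (Finset.mem_insert_of_mem hi)),
      ih fun i hi => hx i (Finset.mem_insert_of_mem hi)]

theorem UP.mk_eq_mk {x y : ∀ n, E n} (hx : Bdd x) (hy : Bdd y) :
    UP.mk ω x = UP.mk ω y ↔ Tendsto (fun n => ‖x n - y n‖) ω (𝓝 0) := by
  rw [← sub_eq_zero, ← UP.mk_sub hx hy, ← norm_eq_zero]
  have := UP.tendsto_norm (ω := ω) (hx.sub hy)
  exact ⟨fun h => h ▸ this, fun h => tendsto_nhds_unique this h⟩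

theorem Bdd.apply {T : ∀ n, E n →L[ℂ] F n} (hT : Bdd T) {x : ∀ n, E n} (hx : Bdd x) :
    Bdd (fun n => T n (x n)) := by
  obtain ⟨C, hC⟩ := hT
  obtain ⟨D, hD⟩ := hx
  exact ⟨C * D, fun n => ((T n).le_opNorm _).trans
    (mul_le_mul (hC n) (hD n) (norm_nonneg _) ((norm_nonneg _).trans (hC n)))⟩

theorem Bdd.comp {S : ∀ n, F n →L[ℂ] G n} (hS : Bdd S) {T : ∀ n, E n →L[ℂ] F n} (hT : Bdd T) :
    Bdd (fun n => (S n).comp (T n)) := by
  obtain ⟨C, hC⟩ := hS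
  obtain ⟨D, hD⟩ := hT
  exact ⟨C * D, fun n => ((S n).opNorm_comp_le _).trans
    (mul_le_mul (hC n) (hD n) (norm_nonneg _) ((norm_nonneg _).trans (hC n)))⟩

theorem Bdd.id : Bdd (fun n => ContinuousLinearMap.id ℂ (E n)) :=
  ⟨1, fun _ => ContinuousLinearMap.norm_id_le⟩

theorem tendsto_apply_zero {T : ∀ n, E n →L[ℂ] F n} (hT : Bdd T) {x : ∀ n, E n}
    (hx : Tendsto (fun n => ‖x n‖) ω (𝓝 0)) : Tendsto (fun n => ‖T n (x n)‖) ω (𝓝 0) := by
  obtain ⟨C, hC⟩ := hT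
  refine squeeze_zero (fun _ => norm_nonneg _) (g := fun n => C * ‖x n‖) (fun n => ?_)
    (by simpa using hx.const_mul C)
  exact ((T n).le_opNorm _).trans (mul_le_mul_of_nonneg_right (hC n) (norm_nonneg _))

theorem tendsto_zero_apply {T : ∀ n, E n →L[ℂ] F n} (hT : Tendsto (fun n => ‖T n‖) ω (𝓝 0))
    {x : ∀ n, E n} (hx : Bdd x) : Tendsto (fun n => ‖T n (x n)‖) ω (𝓝 0) := by
  obtain ⟨C, hC⟩ := hx
  refine squeeze_zero (fun _ => norm_nonneg _) (g := fun n => ‖T n‖ * C) (fun n => ?_)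
    (by simpa using hT.mul_const C)
  exact ((T n).le_opNorm _).trans (mul_le_mul_of_nonneg_left (hC n) (norm_nonneg _))

/-- the induced map on classes -/
def UP.opFun (T : ∀ n, E n →L[ℂ] F n) (ξ : UP ω E) : UP ω F :=
  UP.mk ω fun n => T n ((UP.exists_mk ξ).choose n)

theorem UP.opFun_mk {T : ∀ n, E n →L[ℂ] F n} (hT : Bdd T) {x : ∀ n, E n} (hx : Bdd x) :
    UP.opFun T (UP.mk ω x) = UP.mk ω fun n => T n (x n) := by
  obtain ⟨h1, h2⟩ := (UP.exists_mk (UP.mk ω x)).choose_spec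
  rw [UP.opFun, UP.mk_eq_mk (hT.apply h1) (hT.apply hx)]
  simp only [← map_sub]
  exact tendsto_apply_zero hT ((UP.mk_eq_mk h1 hx).1 h2.symm)

open Classical in
variable (ω) in
/-- the operator induced by a sequence of operators (zero if unbounded) -/
def UP.op (T : ∀ n, E n →L[ℂ] F n) : UP ω E →ₗ[ℂ] UP ω F :=
  if hT : Bdd T then
    { toFun := UP.opFun T
      map_add' := fun ξ η => by
        obtain ⟨x, hx, rfl⟩ := UP.exists_mk ξ
        obtain ⟨y, hy, rfl⟩ := UP.exists_mk η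
        rw [← UP.mk_add hx hy, UP.opFun_mk hT (hx.add hy), UP.opFun_mk hT hx, UP.opFun_mk hT hy,
          ← UP.mk_add (hT.apply hx) (hT.apply hy)]
        simp only [map_add]
      map_smul' := fun c ξ => by
        obtain ⟨x, hx, rfl⟩ := UP.exists_mk ξ
        rw [← UP.mk_smul c hx, UP.opFun_mk hT (hx.smul c), UP.opFun_mk hT hx, RingHom.id_apply,
          ← UP.mk_smul c (hT.apply hx)]
        simp only [map_smul] }
  else 0

theorem UP.op_mk {T : ∀ n, E n →L[ℂ] F n} (hT : Bdd T) {x : ∀ n, E n} (hx : Bdd x) :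
    UP.op ω T (UP.mk ω x) = UP.mk ω fun n => T n (x n) := by
  rw [UP.op, dif_pos hT]
  exact UP.opFun_mk hT hx

theorem UP.op_congr {S T : ∀ n, E n →L[ℂ] F n} (hS : Bdd S) (hT : Bdd T)
    (h : Tendsto (fun n => ‖S n - T n‖) ω (𝓝 0)) : UP.op ω S = UP.op ω T := by
  ext ξ
  obtain ⟨x, hx, rfl⟩ := UP.exists_mk ξ
  rw [UP.op_mk hS hx, UP.op_mk hT hx, UP.mk_eq_mk (hS.apply hx) (hT.apply hx)]
  exact tendsto_zero_apply h hx

theorem UP.op_comp {S : ∀ n, F n →L[ℂ] G n} (hS : Bdd S) {T : ∀ n, E n →L[ℂ] F n} (hT : Bdd T)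
    (ξ : UP ω E) : UP.op ω (fun n => (S n).comp (T n)) ξ = UP.op ω S (UP.op ω T ξ) := by
  obtain ⟨x, hx, rfl⟩ := UP.exists_mk ξ
  rw [UP.op_mk (hS.comp hT) hx, UP.op_mk hT hx, UP.op_mk hS (hT.apply hx)]
  rfl

theorem UP.op_id (ξ : UP ω E) : UP.op ω (fun n => ContinuousLinearMap.id ℂ (E n)) ξ = ξ := by
  obtain ⟨x, hx, rfl⟩ := UP.exists_mk ξ
  rw [UP.op_mk Bdd.id hx]
  rfl

theorem UP.op_add {S T : ∀ n, E n →L[ℂ] F n} (hS : Bdd S) (hT : Bdd T) (ξ : UP ω E) :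
    UP.op ω (fun n => S n + T n) ξ = UP.op ω S ξ + UP.op ω T ξ := by
  obtain ⟨x, hx, rfl⟩ := UP.exists_mk ξ
  rw [UP.op_mk (hS.add hT) hx, UP.op_mk hT hx, UP.op_mk hS hx,
    ← UP.mk_add (hS.apply hx) (hT.apply hx)]
  rfl

theorem UP.op_smul (c : ℂ) {T : ∀ n, E n →L[ℂ] F n} (hT : Bdd T) (ξ : UP ω E) :
    UP.op ω (fun n => c • T n) ξ = c • UP.op ω T ξ := by
  obtain ⟨x, hx, rfl⟩ := UP.exists_mk ξ
  rw [UP.op_mk (hT.smul c) hx, UP.op_mk hT hx, ← UP.mk_smul c (hT.apply hx)]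
  rfl

theorem UP.norm_op_le {T : ∀ n, E n →L[ℂ] F n} (hT : Bdd T) {C : ℝ}
    (h : Tendsto (fun n => ‖T n‖) ω (𝓝 C)) (ξ : UP ω E) : ‖UP.op ω T ξ‖ ≤ C * ‖ξ‖ := by
  obtain ⟨x, hx, rfl⟩ := UP.exists_mk ξ
  rw [UP.op_mk hT hx]
  exact le_of_tendsto_of_tendsto' (UP.tendsto_norm (hT.apply hx)) (h.mul (UP.tendsto_norm hx))
    fun n => (T n).le_opNorm _

/-- exact identities between inner products pass to the limit -/
theorem UP.inner_op_eq {S T : ∀ n, E n →L[ℂ] F n} {S' T' : ∀ n, E n →L[ℂ] G n}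
    (hS : Bdd S) (hT : Bdd T) (hS' : Bdd S') (hT' : Bdd T') (c : ℂ)
    (h : ∀ n v w, ⟪S n v, T n w⟫_ℂ = c * ⟪S' n v, T' n w⟫_ℂ) (ξ η : UP ω E) :
    ⟪UP.op ω S ξ, UP.op ω T η⟫_ℂ = c * ⟪UP.op ω S' ξ, UP.op ω T' η⟫_ℂ := by
  obtain ⟨x, hx, rfl⟩ := UP.exists_mk ξ
  obtain ⟨y, hy, rfl⟩ := UP.exists_mk η
  rw [UP.op_mk hS hx, UP.op_mk hT hy, UP.op_mk hS' hx, UP.op_mk hT' hy]
  refine tendsto_nhds_unique (UP.tendsto_inner (hS.apply hx) (hT.apply hy)) ?_
  simp only [h]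
  exact (UP.tendsto_inner (hS'.apply hx) (hT'.apply hy)).const_mul c

/-- adjoints pass to the limit -/
theorem UP.inner_op_adj {S : ∀ n, E n →L[ℂ] F n} {T : ∀ n, F n →L[ℂ] E n}
    (hS : Bdd S) (hT : Bdd T) (h : ∀ n v w, ⟪S n v, w⟫_ℂ = ⟪v, T n w⟫_ℂ)
    (ξ : UP ω E) (η : UP ω F) : ⟪UP.op ω S ξ, η⟫_ℂ = ⟪ξ, UP.op ω T η⟫_ℂ := by
  obtain ⟨x, hx, rfl⟩ := UP.exists_mk ξ
  obtain ⟨y, hy, rfl⟩ := UP.exists_mk η
  rw [UP.op_mk hS hx, UP.op_mk hT hy]
  refine tendsto_nhds_unique (UP.tendsto_inner (hS.apply hx) hy) ?_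
  simp only [h]
  exact UP.tendsto_inner hx (hT.apply hy)

/-- a diagonal argument along a filter finer than the cofinite one -/
theorem exists_diag {P : ℕ → ℕ → Prop} (hω : (ω : Filter ℕ) ≤ atTop)
    (h : ∀ m, ∀ᶠ n in (ω : Filter ℕ), P m n) :
    ∃ m : ℕ → ℕ, Tendsto m ω atTop ∧ ∀ᶠ n in (ω : Filter ℕ), P (m n) n := by
  classical
  refine ⟨fun n => Nat.findGreatest (fun m => P m n) n, ?_, ?_⟩
  · rw [tendsto_atTop]
    intro k
    filter_upwards [h k, hω (eventually_ge_atTop k)] with n h1 h2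
    exact Nat.le_findGreatest h2 h1
  · filter_upwards [h 0] with n h1
    exact Nat.findGreatest_spec (P := fun m => P m n) (Nat.zero_le n) h1

theorem le_atTop_of_free (h : ∀ n : ℕ, (ω : Filter ℕ) ≠ pure n) : (ω : Filter ℕ) ≤ atTop := by
  rw [← Nat.cofinite_eq_atTop]
  rcases ω.le_cofinite_or_eq_pure with h1 | ⟨a, ha⟩
  · exact h1
  · exact absurd (by rw [ha]; rfl) (h a)

end Crest.Agent.Lib.HilbUltra
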